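/-
helper31 — row 82 (S0110): the cube `[-1,1]^d` in `EuclideanSpace ℝ (Fin d)`, its uniform
probability measure, box volumes, null hyperplanes and the coordinate reflection.
-/
import Mathlib
import Crest.Prelude.Def_QuadraticTransport

set_option autoImplicit false
open MeasureTheory
open scoped ENNReal NNReal RealInnerProductSpace
open Crest.AnalysisR.OT

namespace Crest.Agent.Helper31.OT110

section Cube

variable {d : ℕ}

/-- The closed coordinate box `∏ [a i, b i]` in `EuclideanSpace ℝ (Fin d)`. -/
def box (a b : Fin d → ℝ) : Set (EuclideanSpace ℝ (Fin d)) :=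
  {x | ∀ i, a i ≤ x i ∧ x i ≤ b i}

lemma box_eq_preimage (a b : Fin d → ℝ) :
    box a b = (WithLp.ofLp : EuclideanSpace ℝ (Fin d) → (Fin d → ℝ)) ⁻¹' (Set.Icc a b) := by
  ext x
  simp only [box, Set.mem_ofPred_eq, Set.mem_preimage, Set.mem_Icc, Pi.le_def, forall_and]

lemma measurableSet_box (a b : Fin d → ℝ) : MeasurableSet (box a b) := by
  rw [box_eq_preimage]
  exact (PiLp.volume_preserving_ofLp (Fin d)).measurable measurableSet_Icc

lemma volume_box (a b : Fin d → ℝ) :
    volume (box a b) = ∏ i, ENNReal.ofReal (b i - a i) := by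
  rw [box_eq_preimage, (PiLp.volume_preserving_ofLp (Fin d)).measure_preimage
    measurableSet_Icc.nullMeasurableSet, Real.volume_Icc_pi]

/-- The cube `[-1,1]^d`, written exactly as in the statement. -/
abbrev cube (d : ℕ) : Set (EuclideanSpace ℝ (Fin d)) := {x | ∀ i, |x i| ≤ 1}

lemma cube_eq_box : cube d = box (fun _ => (-1 : ℝ)) (fun _ => 1) := by
  ext x
  simp only [cube, box, Set.mem_ofPred_eq, abs_le]

lemma measurableSet_cube : MeasurableSet (cube d) := by
  rw [cube_eq_box]; exact measurableSet_box _ _

lemma volume_cube : volume (cube d) = ∏ _i : Fin d, ENNReal.ofReal 2 := by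
  rw [cube_eq_box, volume_box]
  norm_num

lemma volume_cube_ne_zero : volume (cube d) ≠ 0 := by
  rw [volume_cube]
  exact Finset.prod_ne_zero_iff.2 fun i _ => by simp

lemma volume_cube_ne_top : volume (cube d) ≠ ∞ := by
  rw [volume_cube]
  exact ENNReal.prod_ne_top fun i _ => ENNReal.ofReal_ne_top

/-- The uniform probability measure on the cube. -/
noncomputable abbrev rho (d : ℕ) : Measure (EuclideanSpace ℝ (Fin d)) := uniformProbOn (cube d)

/-- `rho d` unfolded (by `rfl`, so that no equation lemma of the frozen definition is realised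
in this module). -/
lemma rho_def : rho d = (volume (cube d))⁻¹ •
    (volume : Measure (EuclideanSpace ℝ (Fin d))).restrict (cube d) := rfl

lemma rho_apply {s : Set (EuclideanSpace ℝ (Fin d))} (hs : MeasurableSet s) :
    rho d s = (volume (cube d))⁻¹ * volume (s ∩ cube d) := by
  rw [rho_def, Measure.smul_apply, smul_eq_mul, Measure.restrict_apply hs]

instance rho_isProbabilityMeasure : IsProbabilityMeasure (rho d) := by
  constructor
  rw [rho_apply MeasurableSet.univ, Set.univ_inter]
  exact ENNReal.inv_mul_cancel volume_cube_ne_zero volume_cube_ne_top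

lemma rho_compl_cube : rho d (cube d)ᶜ = 0 := by
  rw [rho_apply measurableSet_cube.compl, Set.compl_inter_self, measure_empty, mul_zero]

lemma ae_rho_mem_cube : ∀ᵐ x ∂(rho d), x ∈ cube d := by
  have := rho_compl_cube (d := d)
  rw [measure_eq_zero_iff_ae_notMem] at this
  exact this.mono fun x hx => not_not.1 hx

lemma rho_absolutelyContinuous : rho d ≪ (volume : Measure (EuclideanSpace ℝ (Fin d))) := by
  rw [rho_def]
  exact (Measure.restrict_le_self.absolutelyContinuous).smul_left _

/-- `ρ` of a box inside the cube is the product of the half side lengths. -/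
lemma rho_box (a b : Fin d → ℝ) (hab : ∀ i, -1 ≤ a i ∧ b i ≤ 1) :
    rho d (box a b) = ∏ i, ENNReal.ofReal ((b i - a i) / 2) := by
  have hsub : box a b ⊆ cube d := by
    intro x hx i
    rw [abs_le]
    exact ⟨(hab i).1.trans (hx i).1, (hx i).2.trans (hab i).2⟩
  rw [rho_apply (measurableSet_box a b), Set.inter_eq_left.2 hsub, volume_box, volume_cube]
  have h2 : ∀ i, ENNReal.ofReal (b i - a i) = ENNReal.ofReal 2 * ENNReal.ofReal ((b i - a i) / 2) := by
    intro i
    rw [← ENNReal.ofReal_mul (by norm_num)]
    congr 1; ring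
  simp_rw [h2]
  rw [Finset.prod_mul_distrib, ← mul_assoc, ENNReal.inv_mul_cancel, one_mul]
  · exact Finset.prod_ne_zero_iff.2 fun i _ => by simp
  · exact ENNReal.prod_ne_top fun i _ => ENNReal.ofReal_ne_top

/-- Hyperplanes through the origin are Lebesgue-null. -/
lemma volume_inner_eq_zero {v : EuclideanSpace ℝ (Fin d)} (hv : v ≠ 0) :
    volume {x : EuclideanSpace ℝ (Fin d) | ⟪x, v⟫ = 0} = 0 := by
  have hne : (ℝ ∙ v)ᗮ ≠ ⊤ := by
    intro h
    have hv' : v ∈ (ℝ ∙ v)ᗮ := by rw [h]; trivial
    rw [Submodule.mem_orthogonal_singleton_iff_inner_right] at hv'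
    exact hv (inner_self_eq_zero.1 hv')
  have := Measure.addHaar_submodule (volume : Measure (EuclideanSpace ℝ (Fin d))) (ℝ ∙ v)ᗮ hne
  convert this using 2
  ext x
  simp only [Set.mem_ofPred_eq, SetLike.mem_coe, Submodule.mem_orthogonal_singleton_iff_inner_left]

lemma rho_inner_eq_zero {v : EuclideanSpace ℝ (Fin d)} (hv : v ≠ 0) :
    rho d {x : EuclideanSpace ℝ (Fin d) | ⟪x, v⟫ = 0} = 0 :=
  rho_absolutelyContinuous (volume_inner_eq_zero hv)

/-- The reflection flipping the sign of coordinate `k`. -/
noncomputable def refl (k : Fin d) : EuclideanSpace ℝ (Fin d) ≃ₗᵢ[ℝ] EuclideanSpace ℝ (Fin d) :=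
  LinearIsometryEquiv.piLpCongrRight 2
    (fun i => if i = k then LinearIsometryEquiv.neg ℝ else LinearIsometryEquiv.refl ℝ ℝ)

lemma refl_apply (k : Fin d) (x : EuclideanSpace ℝ (Fin d)) (i : Fin d) :
    refl k x i = if i = k then - x i else x i := by
  simp only [refl, LinearIsometryEquiv.piLpCongrRight_apply]
  split_ifs with h <;> simp [h]

lemma refl_refl (k : Fin d) (x : EuclideanSpace ℝ (Fin d)) : refl k (refl k x) = x := by
  ext i
  rw [refl_apply, refl_apply]
  split_ifs <;> simp

lemma refl_single [DecidableEq (Fin d)] (k i : Fin d) (a : ℝ) :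
    refl k (EuclideanSpace.single i a) = EuclideanSpace.single i (if i = k then -a else a) := by
  ext j
  rw [refl_apply]
  by_cases hj : j = i
  · subst hj
    split_ifs <;> simp
  · simp [hj]

lemma refl_preimage_cube (k : Fin d) : (refl k) ⁻¹' (cube d) = cube d := by
  ext x
  simp only [Set.mem_preimage, Set.mem_ofPred_eq, refl_apply]
  refine forall_congr' fun i => ?_
  split_ifs <;> simp

lemma measurable_refl (k : Fin d) : Measurable (refl k) :=
  (refl k).continuous.measurable

lemma rho_map_refl (k : Fin d) : (rho d).map (refl k) = rho d := by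
  have hmp : MeasurePreserving (refl k) (volume : Measure (EuclideanSpace ℝ (Fin d))) volume :=
    (refl k).measurePreserving
  have h2 := hmp.restrict_preimage (measurableSet_cube (d := d))
  rw [refl_preimage_cube] at h2
  rw [rho_def, Measure.map_smul, h2.map_eq]

lemma inner_refl_left (k : Fin d) (x z : EuclideanSpace ℝ (Fin d)) :
    ⟪refl k x, z⟫ = ⟪x, refl k z⟫ := by
  have := (refl k).inner_map_map x (refl k z)
  rw [refl_refl] at this
  exact this

end Cube

end Crest.Agent.Helper31.OT110
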