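/-
helper31 — row 82 (S0109/S0110): discrete Fenchel–Young lemmas for semi-discrete quadratic
optimal transport.

Setting: `E` a real inner product space with its Borel σ-algebra, `ρ` a finite measure on `E`,
finitely many distinct sites `y : ι → E` with potentials `ψ : ι → ℝ`.  A measurable map `T` that
selects (ρ-a.e.) a maximiser of `i ↦ ⟪x, y i⟫ - ψ i` is a quadratic optimal map from `ρ` to
`ρ.map T` (`argmax_isOptimalMap`), and, when ties are ρ-null and the cost of `T` is finite, it is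
the only one up to ρ-null sets (`argmax_ae_unique`).
-/
import Mathlib
import Crest.Prelude.Def_QuadraticTransport

set_option autoImplicit false
open MeasureTheory
open scoped ENNReal NNReal RealInnerProductSpace
open Crest.AnalysisR.OT

namespace Crest.Agent.Helper31.OT110

section FY

variable {E : Type*} [NormedAddCommGroup E] [InnerProductSpace ℝ E] [MeasurableSpace E]
  [BorelSpace E]
variable {ι : Type*} [Fintype ι]

set_option linter.unusedSectionVars false

/-- The (shifted, nonnegative) dual potential at the atom `y i`. -/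
noncomputable def shiftG (y : ι → E) (ψ : ι → ℝ) (i : ι) : ℝ :=
  ‖y i‖ ^ 2 - 2 * ψ i + 2 * ∑ k, |ψ k|

lemma shiftG_nonneg (y : ι → E) (ψ : ι → ℝ) (i : ι) : 0 ≤ shiftG y ψ i := by
  unfold shiftG
  have h1 : |ψ i| ≤ ∑ k, |ψ k| :=
    Finset.single_le_sum (f := fun k => |ψ k|) (fun k _ => abs_nonneg _) (Finset.mem_univ i)
  have h2 : ψ i ≤ |ψ i| := le_abs_self _
  nlinarith [sq_nonneg ‖y i‖]

/-- The dual potential as an `ℝ≥0∞`-valued measurable function on `E`, supported on the atoms. -/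
noncomputable def dualG (y : ι → E) (ψ : ι → ℝ) (z : E) : ℝ≥0∞ :=
  ∑ i, Set.indicator {y i} (fun _ => ENNReal.ofReal (shiftG y ψ i)) z

lemma measurable_dualG (y : ι → E) (ψ : ι → ℝ) : Measurable (dualG y ψ) := by
  unfold dualG
  refine Finset.measurable_sum _ fun i _ => ?_
  exact measurable_const.indicator (measurableSet_singleton _)

lemma dualG_apply {y : ι → E} (hy : Function.Injective y) (ψ : ι → ℝ) (j : ι) :
    dualG y ψ (y j) = ENNReal.ofReal (shiftG y ψ j) := by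
  classical
  unfold dualG
  rw [Finset.sum_eq_single j]
  · simp
  · intro i _ hij
    have : y j ∉ ({y i} : Set E) := by
      simp only [Set.mem_singleton_iff]
      exact fun h => hij (hy h).symm
    simp [Set.indicator_of_notMem this]
  · intro h; exact absurd (Finset.mem_univ j) h

lemma dualG_le (y : ι → E) (ψ : ι → ℝ) (z : E) :
    dualG y ψ z ≤ ∑ i, ENNReal.ofReal (shiftG y ψ i) := by
  unfold dualG
  refine Finset.sum_le_sum fun i _ => ?_
  exact Set.indicator_le_self' (fun _ _ => zero_le) z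

lemma lintegral_dualG_ne_top (ρ : Measure E) [IsFiniteMeasure ρ] (y : ι → E) (ψ : ι → ℝ)
    (T : E → E) : ∫⁻ x, dualG y ψ (T x) ∂ρ ≠ ∞ := by
  have h1 : ∫⁻ x, dualG y ψ (T x) ∂ρ ≤ ∫⁻ _x, (∑ i, ENNReal.ofReal (shiftG y ψ i)) ∂ρ :=
    lintegral_mono fun x => dualG_le y ψ (T x)
  rw [lintegral_const] at h1
  refine ne_top_of_le_ne_top ?_ h1
  refine ENNReal.mul_ne_top ?_ (measure_ne_top _ _)
  exact ENNReal.sum_ne_top.2 fun i _ => ENNReal.ofReal_ne_top

lemma enorm_sq_eq_ofReal (v : E) : ‖v‖ₑ ^ 2 = ENNReal.ofReal (‖v‖ ^ 2) := by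
  rw [← ofReal_norm, ← ENNReal.ofReal_pow (norm_nonneg _)]

/-- Pointwise Fenchel–Young inequality. -/
lemma fy_pointwise {y : ι → E} (hy : Function.Injective y) (ψ : ι → ℝ) {x : E} {i j : ι}
    (hmax : ⟪x, y j⟫ - ψ j ≤ ⟪x, y i⟫ - ψ i) :
    ‖x - y i‖ₑ ^ 2 + dualG y ψ (y j) ≤ ‖x - y j‖ₑ ^ 2 + dualG y ψ (y i) := by
  rw [dualG_apply hy, dualG_apply hy, enorm_sq_eq_ofReal, enorm_sq_eq_ofReal,
    ← ENNReal.ofReal_add (by positivity) (shiftG_nonneg y ψ j),
    ← ENNReal.ofReal_add (by positivity) (shiftG_nonneg y ψ i)]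
  apply ENNReal.ofReal_le_ofReal
  rw [norm_sub_sq_real, norm_sub_sq_real]
  unfold shiftG
  linarith

/-- Equality case of the pointwise Fenchel–Young inequality. -/
lemma fy_pointwise_eq {y : ι → E} (hy : Function.Injective y) (ψ : ι → ℝ) {x : E} {i j : ι}
    (h : ‖x - y i‖ₑ ^ 2 + dualG y ψ (y j) = ‖x - y j‖ₑ ^ 2 + dualG y ψ (y i)) :
    ⟪x, y j⟫ - ψ j = ⟪x, y i⟫ - ψ i := by
  rw [dualG_apply hy, dualG_apply hy, enorm_sq_eq_ofReal, enorm_sq_eq_ofReal,
    ← ENNReal.ofReal_add (by positivity) (shiftG_nonneg y ψ j),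
    ← ENNReal.ofReal_add (by positivity) (shiftG_nonneg y ψ i),
    ENNReal.ofReal_eq_ofReal_iff (add_nonneg (by positivity) (shiftG_nonneg y ψ j))
      (add_nonneg (by positivity) (shiftG_nonneg y ψ i))] at h
  rw [norm_sub_sq_real, norm_sub_sq_real] at h
  unfold shiftG at h
  linarith

/-- If `T` takes its values (a.e.) among the atoms, so does any `S` with the same image measure. -/
lemma ae_mem_range_of_map_eq (ρ : Measure E) (y : ι → E) {T S : E → E} (hT : Measurable T)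
    (hS : Measurable S) (hTr : ∀ᵐ x ∂ρ, T x ∈ Set.range y) (hST : ρ.map S = ρ.map T) :
    ∀ᵐ x ∂ρ, S x ∈ Set.range y := by
  have hm : MeasurableSet (Set.range y)ᶜ := (Set.finite_range y).measurableSet.compl
  have h0 : (ρ.map T) (Set.range y)ᶜ = 0 := by
    rw [Measure.map_apply hT hm]
    exact hTr
  rw [← hST, Measure.map_apply hS hm] at h0
  exact h0

/-- The a.e. pointwise inequality between `T` (an argmax selection) and a competitor `S`. -/
lemma fy_ae {y : ι → E} (hy : Function.Injective y) (ψ : ι → ℝ) (ρ : Measure E)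
    {T S : E → E} (hT : Measurable T) (hS : Measurable S)
    (hmax : ∀ᵐ x ∂ρ, ∃ i, T x = y i ∧ ∀ j, ⟪x, y j⟫ - ψ j ≤ ⟪x, y i⟫ - ψ i)
    (hST : ρ.map S = ρ.map T) :
    ∀ᵐ x ∂ρ, ‖x - T x‖ₑ ^ 2 + dualG y ψ (S x) ≤ ‖x - S x‖ₑ ^ 2 + dualG y ψ (T x) := by
  have hTr : ∀ᵐ x ∂ρ, T x ∈ Set.range y := by
    filter_upwards [hmax] with x ⟨i, hi, _⟩
    exact ⟨i, hi.symm⟩
  filter_upwards [hmax, ae_mem_range_of_map_eq ρ y hT hS hTr hST] with x ⟨i, hi, hmx⟩ ⟨j, hj⟩
  rw [hi, ← hj]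
  exact fy_pointwise hy ψ (hmx j)

lemma lintegral_dualG_eq (y : ι → E) (ψ : ι → ℝ) (ρ : Measure E)
    {T S : E → E} (hT : Measurable T) (hS : Measurable S) (hST : ρ.map S = ρ.map T) :
    ∫⁻ x, dualG y ψ (S x) ∂ρ = ∫⁻ x, dualG y ψ (T x) ∂ρ := by
  rw [← lintegral_map (measurable_dualG y ψ) hS, ← lintegral_map (measurable_dualG y ψ) hT, hST]

/-- **(FY1)** A measurable a.e.-argmax selection `T` is a quadratic optimal map from `ρ` to
`ρ.map T`. -/
theorem argmax_isOptimalMap (ρ : Measure E) [IsFiniteMeasure ρ] {y : ι → E}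
    (hy : Function.Injective y) (ψ : ι → ℝ) {T : E → E} (hT : Measurable T)
    (hmax : ∀ᵐ x ∂ρ, ∃ i, T x = y i ∧ ∀ j, ⟪x, y j⟫ - ψ j ≤ ⟪x, y i⟫ - ψ i) :
    IsOptimalMap ρ (ρ.map T) T := by
  refine ⟨hT, rfl, fun S hS hSμ => ?_⟩
  have hGS : Measurable fun x => dualG y ψ (S x) := (measurable_dualG y ψ).comp hS
  have hGT : Measurable fun x => dualG y ψ (T x) := (measurable_dualG y ψ).comp hT
  have hint := lintegral_mono_ae (fy_ae hy ψ ρ hT hS hmax hSμ)
  rw [lintegral_add_right _ hGS, lintegral_add_right _ hGT,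
    lintegral_dualG_eq y ψ ρ hT hS hSμ] at hint
  exact (ENNReal.add_le_add_iff_right (lintegral_dualG_ne_top ρ y ψ T)).1 hint

/-- **(FY2)** If moreover ties between two sites are `ρ`-null and `T` has finite cost, then every
quadratic optimal map from `ρ` to `ρ.map T` agrees with `T` `ρ`-almost everywhere. -/
theorem argmax_ae_unique [SecondCountableTopology E] (ρ : Measure E) [IsFiniteMeasure ρ]
    {y : ι → E} (hy : Function.Injective y) (ψ : ι → ℝ) {T : E → E} (hT : Measurable T)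
    (hmax : ∀ᵐ x ∂ρ, ∃ i, T x = y i ∧ ∀ j, ⟪x, y j⟫ - ψ j ≤ ⟪x, y i⟫ - ψ i)
    (hnull : ∀ i j, i ≠ j → ρ {x | ⟪x, y i⟫ - ψ i = ⟪x, y j⟫ - ψ j} = 0)
    (hfin : ∫⁻ x, ‖x - T x‖ₑ ^ 2 ∂ρ ≠ ∞)
    {S : E → E} (hS : IsOptimalMap ρ (ρ.map T) S) : S =ᵐ[ρ] T := by
  obtain ⟨hSm, hSμ, hSopt⟩ := hS
  have hle := fy_ae hy ψ ρ hT hSm hmax hSμ
  have hcost : ∫⁻ x, ‖x - S x‖ₑ ^ 2 ∂ρ ≤ ∫⁻ x, ‖x - T x‖ₑ ^ 2 ∂ρ := hSopt T hT rfl
  have hGS : Measurable fun x => dualG y ψ (S x) := (measurable_dualG y ψ).comp hSm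
  have hGT : Measurable fun x => dualG y ψ (T x) := (measurable_dualG y ψ).comp hT
  have hmeasS : Measurable fun x => ‖x - S x‖ₑ ^ 2 + dualG y ψ (T x) :=
    ((measurable_id.sub hSm).enorm.pow_const 2).add hGT
  have hfinT : ∫⁻ x, (‖x - T x‖ₑ ^ 2 + dualG y ψ (S x)) ∂ρ ≠ ∞ := by
    rw [lintegral_add_right _ hGS]
    exact ENNReal.add_ne_top.2 ⟨hfin, lintegral_dualG_ne_top ρ y ψ S⟩
  have hge : ∫⁻ x, (‖x - S x‖ₑ ^ 2 + dualG y ψ (T x)) ∂ρ ≤
      ∫⁻ x, (‖x - T x‖ₑ ^ 2 + dualG y ψ (S x)) ∂ρ := by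
    rw [lintegral_add_right _ hGS, lintegral_add_right _ hGT,
      lintegral_dualG_eq y ψ ρ hT hSm hSμ]
    gcongr
  have heq := ae_eq_of_ae_le_of_lintegral_le hle hfinT hmeasS.aemeasurable hge
  have hTr : ∀ᵐ x ∂ρ, T x ∈ Set.range y := by
    filter_upwards [hmax] with x ⟨i, hi, _⟩
    exact ⟨i, hi.symm⟩
  have hSr := ae_mem_range_of_map_eq ρ y hT hSm hTr hSμ
  have hties : ∀ᵐ x ∂ρ, ∀ i j, i ≠ j → ¬ (⟪x, y i⟫ - ψ i = ⟪x, y j⟫ - ψ j) := by
    rw [ae_all_iff]; intro i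
    rw [ae_all_iff]; intro j
    by_cases hij : i = j
    · exact Filter.Eventually.of_forall fun x h => absurd hij h
    · filter_upwards [measure_eq_zero_iff_ae_notMem.1 (hnull i j hij)] with x hx _
      exact hx
  filter_upwards [heq, hmax, hSr, hties] with x hx ⟨i, hi, _⟩ ⟨j, hj⟩ ht
  by_contra hne
  have hij : j ≠ i := by
    rintro rfl
    exact hne (hj.symm.trans hi.symm)
  rw [hi, ← hj] at hx
  exact ht j i hij (fy_pointwise_eq hy ψ hx)

end FY

section Atoms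

variable {E : Type*} [MeasurableSpace E] [MeasurableSingletonClass E]
variable {ι : Type*} [Fintype ι]

/-- **(FY3)** The image of a measure under a measurable map with values among finitely many
distinct points is the corresponding combination of Dirac masses. -/
theorem map_eq_sum_dirac (ρ : Measure E) {y : ι → E} (hy : Function.Injective y) {T : E → E}
    (hT : Measurable T) (hr : ∀ x, T x ∈ Set.range y) :
    ρ.map T = ∑ i, ρ (T ⁻¹' {y i}) • Measure.dirac (y i) := by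
  classical
  ext s hs
  rw [Measure.map_apply hT hs]
  simp only [Measure.coe_finsetSum, Measure.coe_smul, Finset.sum_apply, Pi.smul_apply,
    Measure.dirac_apply' _ hs, smul_eq_mul]
  have hU : T ⁻¹' s = ⋃ i ∈ Finset.univ.filter (fun i => y i ∈ s), T ⁻¹' {y i} := by
    ext x
    simp only [Set.mem_preimage, Set.mem_iUnion, Finset.mem_filter, Finset.mem_univ, true_and,
      Set.mem_singleton_iff, exists_prop]
    constructor
    · intro hx
      obtain ⟨i, hi⟩ := hr x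
      exact ⟨i, hi ▸ hx, hi.symm⟩
    · rintro ⟨i, hi, hxi⟩
      rw [hxi]; exact hi
  rw [hU, measure_biUnion_finset]
  · rw [Finset.sum_filter]
    refine Finset.sum_congr rfl fun i _ => ?_
    by_cases h : y i ∈ s <;> simp [h]
  · intro i _ j _ hij
    refine Set.disjoint_left.2 fun x hxi hxj => hij (hy ?_)
    simp only [Set.mem_preimage, Set.mem_singleton_iff] at hxi hxj
    exact hxi.symm.trans hxj
  · intro i _
    exact hT (measurableSet_singleton _)

end Atoms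

end Crest.Agent.Helper31.OT110
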