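/-
helper31 — row 82 (S0110): the three-atom sliver example on the cube.
-/
import Mathlib
import Crest.Prelude.Def_QuadraticTransport
import Crest.Agent.Helper31.OT110.FY
import Crest.Agent.Helper31.OT110.Cube

set_option autoImplicit false
open MeasureTheory
open scoped ENNReal NNReal RealInnerProductSpace
open Crest.AnalysisR.OT

namespace Crest.Agent.Helper31.OT110

section Good

variable {d : ℕ}

/-- Abbreviation for the ambient Euclidean space. -/
abbrev Eu (d : ℕ) : Type := EuclideanSpace ℝ (Fin d)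

lemma norm_sq_le_of_mem_cube {z : Eu d} (hz : z ∈ cube d) : ‖z‖ ^ 2 ≤ d := by
  rw [EuclideanSpace.real_norm_sq_eq]
  calc ∑ i, z i ^ 2 ≤ ∑ _i : Fin d, (1 : ℝ) := Finset.sum_le_sum fun i _ => by
        have := hz i
        rw [abs_le] at this
        nlinarith
    _ = d := by simp

lemma cost_ne_top {T : Eu d → Eu d} (hmem : ∀ x, T x ∈ cube d) :
    ∫⁻ x, ‖x - T x‖ₑ ^ 2 ∂(rho d) ≠ ∞ := by
  have hb : ∀ᵐ x ∂(rho d), ‖x - T x‖ₑ ^ 2 ≤ ENNReal.ofReal (4 * d) := by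
    filter_upwards [ae_rho_mem_cube] with x hx
    rw [enorm_sq_eq_ofReal]
    apply ENNReal.ofReal_le_ofReal
    have h1 := norm_sq_le_of_mem_cube hx
    have h2 := norm_sq_le_of_mem_cube (hmem x)
    have h3 : ‖x - T x‖ ≤ ‖x‖ + ‖T x‖ := norm_sub_le _ _
    nlinarith [norm_nonneg x, norm_nonneg (T x), norm_nonneg (x - T x), sq_nonneg (‖x‖ - ‖T x‖)]
  have := lintegral_mono_ae hb
  rw [lintegral_const, measure_univ, mul_one] at this
  exact ne_top_of_le_ne_top ENNReal.ofReal_ne_top this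

theorem good_isProbabilityOn {T : Eu d → Eu d} (hT : Measurable T) (hmem : ∀ x, T x ∈ cube d) :
    IsProbabilityOn (cube d) ((rho d).map T) := by
  refine ⟨Measure.isProbabilityMeasure_map hT.aemeasurable, ?_⟩
  rw [Measure.map_apply hT measurableSet_cube.compl]
  have : T ⁻¹' (cube d)ᶜ = ∅ := by
    ext x
    simp only [Set.mem_preimage, Set.mem_compl_iff, Set.mem_empty_iff_false, iff_false, not_not]
    exact hmem x
  rw [this, measure_empty]

theorem good_isThreeAtomic {y : Fin 3 → Eu d} (hy : Function.Injective y) {T : Eu d → Eu d}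
    (hT : Measurable T) (hr : ∀ x, T x ∈ Set.range y) (hpos : ∀ i, 0 < rho d (T ⁻¹' {y i})) :
    IsThreeAtomic ((rho d).map T) := by
  refine ⟨y, hy, fun i => (rho d (T ⁻¹' {y i})).toReal,
    fun i => ENNReal.toReal_pos (hpos i).ne' (measure_ne_top _ _), ?_⟩
  rw [map_eq_sum_dirac (rho d) hy hT hr]
  refine Finset.sum_congr rfl fun i _ => ?_
  rw [ENNReal.ofReal_toReal (measure_ne_top _ _)]

theorem good_isOptimalMap {y : Fin 3 → Eu d} (hy : Function.Injective y) {T : Eu d → Eu d}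
    (hT : Measurable T) (hmax : ∀ x, ∃ i, T x = y i ∧ ∀ j, ⟪x, y j⟫ ≤ ⟪x, y i⟫) :
    IsOptimalMap (rho d) ((rho d).map T) T := by
  refine argmax_isOptimalMap (rho d) hy (fun _ => 0) hT (Filter.Eventually.of_forall fun x => ?_)
  obtain ⟨i, hi, hm⟩ := hmax x
  exact ⟨i, hi, fun j => by simpa using hm j⟩

theorem good_ae_unique {y : Fin 3 → Eu d} (hy : Function.Injective y) {T : Eu d → Eu d}
    (hT : Measurable T) (hmax : ∀ x, ∃ i, T x = y i ∧ ∀ j, ⟪x, y j⟫ ≤ ⟪x, y i⟫)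
    (hmem : ∀ i, y i ∈ cube d) {S : Eu d → Eu d}
    (hS : IsOptimalMap (rho d) ((rho d).map T) S) : S =ᵐ[rho d] T := by
  refine argmax_ae_unique (rho d) hy (fun _ => 0) hT (Filter.Eventually.of_forall fun x => ?_)
    ?_ ?_ hS
  · obtain ⟨i, hi, hm⟩ := hmax x
    exact ⟨i, hi, fun j => by simpa using hm j⟩
  · intro i j hij
    have hv : y i - y j ≠ 0 := sub_ne_zero.2 (fun h => hij (hy h))
    have h0 := rho_inner_eq_zero hv
    have hset : {x : Eu d | ⟪x, y i⟫ - (fun _ : Fin 3 => (0 : ℝ)) i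
        = ⟪x, y j⟫ - (fun _ : Fin 3 => (0 : ℝ)) j} = {x : Eu d | ⟪x, y i - y j⟫ = 0} := by
      ext x
      simp only [Set.mem_ofPred_eq, sub_zero, inner_sub_right, sub_eq_zero]
    rw [hset]
    exact h0
  · refine cost_ne_top fun x => ?_
    obtain ⟨i, hi, _⟩ := hmax x
    rw [hi]
    exact hmem i

end Good

section Sliver

variable {d : ℕ}

/-- The three sites `e_{i₀}`, `-e_{i₀}`, `ε e_{i₁}`. -/
noncomputable def sites (i₀ i₁ : Fin d) (ε : ℝ) : Fin 3 → Eu d :=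
  ![EuclideanSpace.single i₀ (1 : ℝ), EuclideanSpace.single i₀ (-1 : ℝ),
    EuclideanSpace.single i₁ ε]

/-- The sliver `{|x_{i₀}| < ε x_{i₁}}`. -/
def sliver (i₀ i₁ : Fin d) (ε : ℝ) : Set (Eu d) := {x | |x i₀| < ε * x i₁}

/-- The argmax selection. -/
noncomputable def Tsel (i₀ i₁ : Fin d) (ε : ℝ) (x : Eu d) : Eu d :=
  if |x i₀| < ε * x i₁ then sites i₀ i₁ ε 2
  else if 0 ≤ x i₀ then sites i₀ i₁ ε 0 else sites i₀ i₁ ε 1

lemma sites_zero (i₀ i₁ : Fin d) (ε : ℝ) :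
    sites i₀ i₁ ε 0 = EuclideanSpace.single i₀ (1 : ℝ) := rfl

lemma sites_one (i₀ i₁ : Fin d) (ε : ℝ) :
    sites i₀ i₁ ε 1 = EuclideanSpace.single i₀ (-1 : ℝ) := rfl

lemma sites_two (i₀ i₁ : Fin d) (ε : ℝ) :
    sites i₀ i₁ ε 2 = EuclideanSpace.single i₁ ε := rfl

lemma inner_sites_zero (i₀ i₁ : Fin d) (ε : ℝ) (x : Eu d) : ⟪x, sites i₀ i₁ ε 0⟫ = x i₀ := by
  rw [sites_zero, EuclideanSpace.inner_single_right]; simp

lemma inner_sites_one (i₀ i₁ : Fin d) (ε : ℝ) (x : Eu d) : ⟪x, sites i₀ i₁ ε 1⟫ = - x i₀ := by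
  rw [sites_one, EuclideanSpace.inner_single_right]; simp

lemma inner_sites_two (i₀ i₁ : Fin d) (ε : ℝ) (x : Eu d) :
    ⟪x, sites i₀ i₁ ε 2⟫ = ε * x i₁ := by
  rw [sites_two, EuclideanSpace.inner_single_right]; simp

lemma sites_injective {i₀ i₁ : Fin d} (h01 : i₀ ≠ i₁) (ε : ℝ) :
    Function.Injective (sites i₀ i₁ ε) := by
  have h0 : sites i₀ i₁ ε 0 i₀ = 1 := by simp [sites_zero]
  have h1 : sites i₀ i₁ ε 1 i₀ = -1 := by simp [sites_one]
  have h2 : sites i₀ i₁ ε 2 i₀ = 0 := by simp [sites_two, h01]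
  intro i j h
  have hc : sites i₀ i₁ ε i i₀ = sites i₀ i₁ ε j i₀ := by rw [h]
  fin_cases i <;> fin_cases j <;> first | rfl | (exfalso; simp only [Fin.zero_eta, Fin.mk_one, Fin.reduceFinMk, h0, h1, h2] at hc; norm_num at hc)

lemma measurableSet_sliver (i₀ i₁ : Fin d) (ε : ℝ) : MeasurableSet (sliver i₀ i₁ ε) := by
  have h0 : Measurable fun x : Eu d => x i₀ := (EuclideanSpace.proj i₀).continuous.measurable
  have h1 : Measurable fun x : Eu d => x i₁ := (EuclideanSpace.proj i₁).continuous.measurable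
  exact measurableSet_lt (measurable_norm.comp h0) (h1.const_mul ε)

lemma measurable_Tsel (i₀ i₁ : Fin d) (ε : ℝ) : Measurable (Tsel i₀ i₁ ε) := by
  have h0 : Measurable fun x : Eu d => x i₀ := (EuclideanSpace.proj i₀).continuous.measurable
  unfold Tsel
  refine Measurable.ite (measurableSet_sliver i₀ i₁ ε) measurable_const ?_
  exact Measurable.ite (measurableSet_le measurable_const h0) measurable_const measurable_const

lemma Tsel_argmax (i₀ i₁ : Fin d) (ε : ℝ) (x : Eu d) :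
    ∃ i, Tsel i₀ i₁ ε x = sites i₀ i₁ ε i ∧
      ∀ j, ⟪x, sites i₀ i₁ ε j⟫ ≤ ⟪x, sites i₀ i₁ ε i⟫ := by
  unfold Tsel
  by_cases hA : |x i₀| < ε * x i₁
  · refine ⟨2, by rw [if_pos hA], fun j => ?_⟩
    rw [inner_sites_two]
    have := abs_lt.1 hA
    fin_cases j
    · show ⟪x, sites i₀ i₁ ε 0⟫ ≤ _
      rw [inner_sites_zero]; linarith
    · show ⟪x, sites i₀ i₁ ε 1⟫ ≤ _
      rw [inner_sites_one]; linarith
    · show ⟪x, sites i₀ i₁ ε 2⟫ ≤ _
      rw [inner_sites_two]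
  · rw [if_neg hA]
    have hA' : ε * x i₁ ≤ |x i₀| := not_lt.1 hA
    by_cases h0 : 0 ≤ x i₀
    · refine ⟨0, by rw [if_pos h0], fun j => ?_⟩
      rw [inner_sites_zero]
      rw [abs_of_nonneg h0] at hA'
      fin_cases j
      · show ⟪x, sites i₀ i₁ ε 0⟫ ≤ _
        rw [inner_sites_zero]
      · show ⟪x, sites i₀ i₁ ε 1⟫ ≤ _
        rw [inner_sites_one]; linarith
      · show ⟪x, sites i₀ i₁ ε 2⟫ ≤ _
        rw [inner_sites_two]; linarith
    · refine ⟨1, by rw [if_neg h0], fun j => ?_⟩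
      rw [inner_sites_one]
      have h0' : x i₀ < 0 := not_le.1 h0
      rw [abs_of_neg h0'] at hA'
      fin_cases j
      · show ⟪x, sites i₀ i₁ ε 0⟫ ≤ _
        rw [inner_sites_zero]; linarith
      · show ⟪x, sites i₀ i₁ ε 1⟫ ≤ _
        rw [inner_sites_one]
      · show ⟪x, sites i₀ i₁ ε 2⟫ ≤ _
        rw [inner_sites_two]; linarith

lemma Tsel_mem_range (i₀ i₁ : Fin d) (ε : ℝ) (x : Eu d) :
    Tsel i₀ i₁ ε x ∈ Set.range (sites i₀ i₁ ε) := by
  obtain ⟨i, hi, _⟩ := Tsel_argmax i₀ i₁ ε x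
  exact ⟨i, hi.symm⟩

lemma single_mem_cube (i : Fin d) {a : ℝ} (ha : |a| ≤ 1) :
    (EuclideanSpace.single i a : Eu d) ∈ cube d := by
  intro j
  by_cases hj : j = i
  · subst hj; simpa using ha
  · simp [hj]

lemma sites_mem_cube (i₀ i₁ : Fin d) {ε : ℝ} (hε : |ε| ≤ 1) (i : Fin 3) :
    sites i₀ i₁ ε i ∈ cube d := by
  fin_cases i
  · exact single_mem_cube i₀ (by norm_num)
  · exact single_mem_cube i₀ (by norm_num)
  · exact single_mem_cube i₁ hε

lemma Tsel_of_mem {i₀ i₁ : Fin d} {ε : ℝ} {x : Eu d} (hx : x ∈ sliver i₀ i₁ ε) :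
    Tsel i₀ i₁ ε x = sites i₀ i₁ ε 2 := by
  have hx' : |x i₀| < ε * x i₁ := hx
  unfold Tsel; rw [if_pos hx']

lemma Tsel_of_notMem {i₀ i₁ : Fin d} {ε : ℝ} {x : Eu d} (hx : x ∉ sliver i₀ i₁ ε) :
    Tsel i₀ i₁ ε x = sites i₀ i₁ ε 0 ∨ Tsel i₀ i₁ ε x = sites i₀ i₁ ε 1 := by
  have hx' : ¬ |x i₀| < ε * x i₁ := hx
  unfold Tsel
  rw [if_neg hx']
  by_cases h0 : 0 ≤ x i₀
  · left; rw [if_pos h0]
  · right; rw [if_neg h0]

end Sliver

section Masses

variable {d : ℕ}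

/-- The sliver has `ρ`-mass at most `ε`. -/
lemma rho_sliver_le {i₀ i₁ : Fin d} {ε : ℝ} (hε0 : 0 < ε) (hε1 : ε ≤ 1) :
    rho d (sliver i₀ i₁ ε) ≤ ENNReal.ofReal ε := by
  classical
  set a : Fin d → ℝ := fun i => if i = i₀ then -ε else -1 with ha
  set b : Fin d → ℝ := fun i => if i = i₀ then ε else 1 with hb
  have hsub : sliver i₀ i₁ ε ⊆ box a b ∪ (cube d)ᶜ := by
    intro x hx
    by_cases hc : x ∈ cube d
    · left
      intro i
      have hi := abs_le.1 (hc i)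
      by_cases hi0 : i = i₀
      · subst hi0
        have h1 := abs_le.1 (hc i₁)
        have hx' : |x i| < ε * x i₁ := hx
        have h2 : ε * x i₁ ≤ ε := by nlinarith
        have h3 := abs_lt.1 (lt_of_lt_of_le hx' h2)
        simp only [ha, hb, if_true]
        exact ⟨h3.1.le, h3.2.le⟩
      · simp only [ha, hb, if_neg hi0]
        exact hi
    · right; exact hc
  have hbox : rho d (box a b) = ENNReal.ofReal ε := by
    rw [rho_box a b]
    · rw [Fintype.prod_eq_single i₀]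
      · simp only [ha, hb, if_true]
        congr 1; ring
      · intro i hi
        simp only [ha, hb, if_neg hi]
        norm_num
    · intro i
      by_cases hi0 : i = i₀
      · simp only [ha, hb, if_pos hi0]
        constructor <;> linarith
      · simp only [ha, hb, if_neg hi0]
        constructor <;> norm_num
  calc rho d (sliver i₀ i₁ ε) ≤ rho d (box a b ∪ (cube d)ᶜ) := measure_mono hsub
    _ ≤ rho d (box a b) + rho d (cube d)ᶜ := measure_union_le _ _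
    _ = ENNReal.ofReal ε := by rw [hbox, rho_compl_cube, add_zero]

/-- The sliver has `ρ`-mass at least `ε / 16`. -/
lemma le_rho_sliver {i₀ i₁ : Fin d} (h01 : i₀ ≠ i₁) {ε : ℝ} (hε0 : 0 < ε) (hε1 : ε ≤ 1) :
    ENNReal.ofReal (ε / 16) ≤ rho d (sliver i₀ i₁ ε) := by
  classical
  set a : Fin d → ℝ := fun i => if i = i₀ then -ε / 2 else if i = i₁ then 3 / 4 else -1 with ha
  set b : Fin d → ℝ := fun i => if i = i₀ then ε / 2 else 1 with hb
  have hsub : box a b ⊆ sliver i₀ i₁ ε := by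
    intro x hx
    have h0 := hx i₀
    have h1 := hx i₁
    simp only [ha, hb, if_true, if_neg h01.symm] at h0 h1
    show |x i₀| < ε * x i₁
    rw [abs_lt]
    constructor <;> nlinarith
  have hbox : rho d (box a b) = ENNReal.ofReal (ε / 16) := by
    rw [rho_box a b]
    · rw [Fintype.prod_eq_mul i₀ i₁ h01]
      · simp only [ha, hb, if_true, if_neg h01.symm]
        rw [← ENNReal.ofReal_mul (by linarith)]
        congr 1; ring
      · intro i hi
        simp only [ha, hb, if_neg hi.1, if_neg hi.2]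
        norm_num
    · intro i
      by_cases hi0 : i = i₀
      · simp only [ha, hb, if_pos hi0]
        constructor <;> linarith
      · by_cases hi1 : i = i₁
        · simp only [ha, hb, if_neg hi0, if_pos hi1]
          constructor <;> norm_num
        · simp only [ha, hb, if_neg hi0, if_neg hi1]
          constructor <;> norm_num
  rw [← hbox]
  exact measure_mono hsub

/-- The part of the cube with `x_{i₀} ≥ ε` is sent to the first site. -/
lemma rho_preimage_site_zero_pos {i₀ i₁ : Fin d} {ε : ℝ} (hε0 : 0 < ε) (hε1 : ε < 1) :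
    0 < rho d (Tsel i₀ i₁ ε ⁻¹' {sites i₀ i₁ ε 0}) := by
  classical
  set a : Fin d → ℝ := fun i => if i = i₀ then ε else -1 with ha
  set b : Fin d → ℝ := fun _ => 1 with hb
  have hsub : box a b ⊆ Tsel i₀ i₁ ε ⁻¹' {sites i₀ i₁ ε 0} := by
    intro x hx
    have h0 := hx i₀
    have h1 := (hx i₁).2
    simp only [ha, hb, if_true] at h0 h1
    have hA : ¬ |x i₀| < ε * x i₁ := by
      rw [abs_of_nonneg (by linarith)]
      nlinarith
    have hpos : 0 ≤ x i₀ := by linarith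
    simp only [Set.mem_preimage, Set.mem_singleton_iff, Tsel, if_neg hA, if_pos hpos]
  have hbox : rho d (box a b) = ENNReal.ofReal ((1 - ε) / 2) := by
    rw [rho_box a b]
    · rw [Fintype.prod_eq_single i₀]
      · simp only [ha, hb, if_true]
      · intro i hi
        simp only [ha, hb, if_neg hi]
        norm_num
    · intro i
      by_cases hi0 : i = i₀
      · simp only [ha, hb, if_pos hi0]
        constructor <;> linarith
      · simp only [ha, hb, if_neg hi0]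
        constructor <;> norm_num
  refine lt_of_lt_of_le ?_ (measure_mono hsub)
  rw [hbox]
  exact ENNReal.ofReal_pos.2 (by linarith)

/-- The part of the cube with `x_{i₀} ≤ -ε` is sent to the second site. -/
lemma rho_preimage_site_one_pos {i₀ i₁ : Fin d} {ε : ℝ} (hε0 : 0 < ε) (hε1 : ε < 1) :
    0 < rho d (Tsel i₀ i₁ ε ⁻¹' {sites i₀ i₁ ε 1}) := by
  classical
  set a : Fin d → ℝ := fun _ => -1 with ha
  set b : Fin d → ℝ := fun i => if i = i₀ then -ε else 1 with hb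
  have hsub : box a b ⊆ Tsel i₀ i₁ ε ⁻¹' {sites i₀ i₁ ε 1} := by
    intro x hx
    have h0 := hx i₀
    have h1 := (hx i₁).2
    by_cases h01 : i₁ = i₀
    · subst h01
      simp only [ha, hb, if_true] at h0
      have hA : ¬ |x i₁| < ε * x i₁ := by
        rw [abs_of_neg (by linarith)]
        nlinarith
      have hneg : ¬ 0 ≤ x i₁ := by linarith
      simp only [Set.mem_preimage, Set.mem_singleton_iff, Tsel, if_neg hA, if_neg hneg]
    · simp only [ha, hb, if_true, if_neg h01] at h0 h1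
      have hA : ¬ |x i₀| < ε * x i₁ := by
        rw [abs_of_neg (by linarith)]
        nlinarith
      have hneg : ¬ 0 ≤ x i₀ := by linarith
      simp only [Set.mem_preimage, Set.mem_singleton_iff, Tsel, if_neg hA, if_neg hneg]
  have hbox : rho d (box a b) = ENNReal.ofReal ((1 - ε) / 2) := by
    rw [rho_box a b]
    · rw [Fintype.prod_eq_single i₀]
      · simp only [ha, hb, if_true]
        congr 1; ring
      · intro i hi
        simp only [ha, hb, if_neg hi]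
        norm_num
    · intro i
      by_cases hi0 : i = i₀
      · simp only [ha, hb, if_pos hi0]
        constructor <;> linarith
      · simp only [ha, hb, if_neg hi0]
        constructor <;> norm_num
  refine lt_of_lt_of_le ?_ (measure_mono hsub)
  rw [hbox]
  exact ENNReal.ofReal_pos.2 (by linarith)

lemma rho_preimage_site_two_pos {i₀ i₁ : Fin d} (h01 : i₀ ≠ i₁) {ε : ℝ} (hε0 : 0 < ε)
    (hε1 : ε ≤ 1) : 0 < rho d (Tsel i₀ i₁ ε ⁻¹' {sites i₀ i₁ ε 2}) := by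
  have hsub : sliver i₀ i₁ ε ⊆ Tsel i₀ i₁ ε ⁻¹' {sites i₀ i₁ ε 2} := fun x hx => Tsel_of_mem hx
  refine lt_of_lt_of_le ?_ (measure_mono hsub)
  exact lt_of_lt_of_le (ENNReal.ofReal_pos.2 (by linarith)) (le_rho_sliver h01 hε0 hε1)

lemma rho_preimage_site_pos {i₀ i₁ : Fin d} (h01 : i₀ ≠ i₁) {ε : ℝ} (hε0 : 0 < ε)
    (hε1 : ε < 1) (i : Fin 3) : 0 < rho d (Tsel i₀ i₁ ε ⁻¹' {sites i₀ i₁ ε i}) := by
  fin_cases i
  · exact rho_preimage_site_zero_pos hε0 hε1
  · exact rho_preimage_site_one_pos hε0 hε1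
  · exact rho_preimage_site_two_pos h01 hε0 hε1.le

end Masses

section Reflected

variable {d : ℕ}

/-- The reflected sites. -/
noncomputable def sitesR (i₀ i₁ : Fin d) (ε : ℝ) (i : Fin 3) : Eu d :=
  refl i₁ (sites i₀ i₁ ε i)

/-- The reflected selection `R ∘ T ∘ R`. -/
noncomputable def TselR (i₀ i₁ : Fin d) (ε : ℝ) (x : Eu d) : Eu d :=
  refl i₁ (Tsel i₀ i₁ ε (refl i₁ x))

lemma sitesR_injective {i₀ i₁ : Fin d} (h01 : i₀ ≠ i₁) (ε : ℝ) :
    Function.Injective (sitesR i₀ i₁ ε) :=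
  (refl i₁).injective.comp (sites_injective h01 ε)

lemma measurable_TselR (i₀ i₁ : Fin d) (ε : ℝ) : Measurable (TselR i₀ i₁ ε) :=
  (measurable_refl i₁).comp ((measurable_Tsel i₀ i₁ ε).comp (measurable_refl i₁))

lemma TselR_argmax (i₀ i₁ : Fin d) (ε : ℝ) (x : Eu d) :
    ∃ i, TselR i₀ i₁ ε x = sitesR i₀ i₁ ε i ∧
      ∀ j, ⟪x, sitesR i₀ i₁ ε j⟫ ≤ ⟪x, sitesR i₀ i₁ ε i⟫ := by
  obtain ⟨i, hi, hm⟩ := Tsel_argmax i₀ i₁ ε (refl i₁ x)
  refine ⟨i, by unfold TselR sitesR; rw [hi], fun j => ?_⟩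
  unfold sitesR
  rw [← inner_refl_left, ← inner_refl_left]
  exact hm j

lemma refl_mem_cube (k : Fin d) {z : Eu d} (hz : z ∈ cube d) : refl k z ∈ cube d := by
  have : z ∈ (refl k) ⁻¹' (cube d) := by rw [refl_preimage_cube]; exact hz
  exact this

lemma sitesR_mem_cube (i₀ i₁ : Fin d) {ε : ℝ} (hε : |ε| ≤ 1) (i : Fin 3) :
    sitesR i₀ i₁ ε i ∈ cube d :=
  refl_mem_cube i₁ (sites_mem_cube i₀ i₁ hε i)

lemma TselR_mem_range (i₀ i₁ : Fin d) (ε : ℝ) (x : Eu d) :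
    TselR i₀ i₁ ε x ∈ Set.range (sitesR i₀ i₁ ε) := by
  obtain ⟨i, hi, _⟩ := TselR_argmax i₀ i₁ ε x
  exact ⟨i, hi.symm⟩

lemma rho_preimage_siteR (i₀ i₁ : Fin d) (ε : ℝ) (i : Fin 3) :
    rho d (TselR i₀ i₁ ε ⁻¹' {sitesR i₀ i₁ ε i}) = rho d (Tsel i₀ i₁ ε ⁻¹' {sites i₀ i₁ ε i}) := by
  have hset : TselR i₀ i₁ ε ⁻¹' {sitesR i₀ i₁ ε i}
      = (refl i₁) ⁻¹' (Tsel i₀ i₁ ε ⁻¹' {sites i₀ i₁ ε i}) := by
    ext x
    simp only [Set.mem_preimage, Set.mem_singleton_iff, TselR, sitesR]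
    exact (refl i₁).injective.eq_iff
  have hm : MeasurableSet (Tsel i₀ i₁ ε ⁻¹' {sites i₀ i₁ ε i}) :=
    measurable_Tsel i₀ i₁ ε (measurableSet_singleton _)
  rw [hset, ← Measure.map_apply (measurable_refl i₁) hm, rho_map_refl]

lemma map_TselR (i₀ i₁ : Fin d) (ε : ℝ) :
    (rho d).map (TselR i₀ i₁ ε) = ((rho d).map (Tsel i₀ i₁ ε)).map (refl i₁) := by
  have hm : Measurable fun x => refl i₁ (Tsel i₀ i₁ ε x) :=
    (measurable_refl i₁).comp (measurable_Tsel i₀ i₁ ε)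
  have h1 : (rho d).map (TselR i₀ i₁ ε)
      = ((rho d).map (refl i₁)).map (fun x => refl i₁ (Tsel i₀ i₁ ε x)) := by
    rw [Measure.map_map hm (measurable_refl i₁)]
    rfl
  rw [h1, rho_map_refl, Measure.map_map (measurable_refl i₁) (measurable_Tsel i₀ i₁ ε)]
  rfl

/-- On the sliver the two selections are at distance at least one. -/
lemma one_le_norm_sub {i₀ i₁ : Fin d} (h01 : i₀ ≠ i₁) {ε : ℝ} (hε0 : 0 < ε) {x : Eu d}
    (hx : x ∈ sliver i₀ i₁ ε) : 1 ≤ ‖Tsel i₀ i₁ ε x - TselR i₀ i₁ ε x‖ := by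
  classical
  have hx' : |x i₀| < ε * x i₁ := hx
  have hx1 : 0 < x i₁ := by
    have := abs_nonneg (x i₀)
    by_contra hneg
    have : ε * x i₁ ≤ 0 := mul_nonpos_of_nonneg_of_nonpos hε0.le (not_lt.1 hneg)
    linarith
  have hR : refl i₁ x ∉ sliver i₀ i₁ ε := by
    intro hmem
    have hmem' : |refl i₁ x i₀| < ε * refl i₁ x i₁ := hmem
    rw [refl_apply, refl_apply, if_neg h01, if_pos rfl] at hmem'
    have := abs_nonneg (x i₀)
    nlinarith
  have hcoord : |(Tsel i₀ i₁ ε x - TselR i₀ i₁ ε x) i₀| = 1 := by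
    rw [Tsel_of_mem hx]
    unfold TselR
    rcases Tsel_of_notMem hR with h | h
    · rw [h, sites_zero, sites_two, refl_single, if_neg h01]
      simp [h01]
    · rw [h, sites_one, sites_two, refl_single, if_neg h01]
      simp [h01]
  calc (1 : ℝ) = ‖(Tsel i₀ i₁ ε x - TselR i₀ i₁ ε x) i₀‖ := by rw [Real.norm_eq_abs, hcoord]
    _ ≤ ‖Tsel i₀ i₁ ε x - TselR i₀ i₁ ε x‖ := PiLp.norm_apply_le _ _

/-- The reflection moves `T x` only on the sliver, and there by `2 ε`. -/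
lemma enorm_sub_refl_le {i₀ i₁ : Fin d} (h01 : i₀ ≠ i₁) (ε : ℝ) (x : Eu d) :
    ‖Tsel i₀ i₁ ε x - refl i₁ (Tsel i₀ i₁ ε x)‖ₑ ^ 2 ≤
      (sliver i₀ i₁ ε).indicator (fun _ => ENNReal.ofReal (4 * ε ^ 2)) x := by
  classical
  by_cases hx : x ∈ sliver i₀ i₁ ε
  · rw [Set.indicator_of_mem hx, Tsel_of_mem hx, sites_two, refl_single, if_pos rfl,
      enorm_sq_eq_ofReal]
    apply ENNReal.ofReal_le_ofReal
    have : (EuclideanSpace.single i₁ ε - EuclideanSpace.single i₁ (-ε) : Eu d)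
        = EuclideanSpace.single i₁ (2 * ε) := by
      ext j
      by_cases hj : j = i₁
      · subst hj; simp; ring
      · simp [hj]
    rw [this, PiLp.norm_single, Real.norm_eq_abs, sq_abs]
    apply le_of_eq; ring
  · rw [Set.indicator_of_notMem hx]
    rcases Tsel_of_notMem hx with h | h
    · rw [h, sites_zero, refl_single, if_neg h01]; simp
    · rw [h, sites_one, refl_single, if_neg h01]; simp

end Reflected

section Final

/-- The numerical choice of the sliver slope. -/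
lemma exists_eps (α : ℝ) (hα : 1 / 3 < α) (C : ℝ) (hC : 0 ≤ C) :
    ∃ ε : ℝ, 0 < ε ∧ ε < 1 ∧ C * (4 * ε ^ 3) ^ α < ε / 16 := by
  set β : ℝ := 3 * α - 1 with hβ
  have hβpos : 0 < β := by rw [hβ]; linarith
  have h4 : 0 < (4 : ℝ) ^ α := Real.rpow_pos_of_pos (by norm_num) α
  set δ : ℝ := 1 / (16 * (C + 1) * 4 ^ α) with hδ
  have hδpos : 0 < δ := by rw [hδ]; positivity
  set ε : ℝ := min (1 / 2) (δ ^ (1 / β)) with hε
  have hεpos : 0 < ε := lt_min (by norm_num) (Real.rpow_pos_of_pos hδpos _)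
  have hεlt : ε < 1 := lt_of_le_of_lt (min_le_left _ _) (by norm_num)
  refine ⟨ε, hεpos, hεlt, ?_⟩
  have hεβ : ε ^ β ≤ δ := by
    calc ε ^ β ≤ (δ ^ (1 / β)) ^ β := Real.rpow_le_rpow hεpos.le (min_le_right _ _) hβpos.le
      _ = δ := by rw [← Real.rpow_mul hδpos.le, one_div_mul_cancel hβpos.ne', Real.rpow_one]
  have hpow : (4 * ε ^ 3) ^ α = 4 ^ α * (ε * ε ^ β) := by
    rw [Real.mul_rpow (by norm_num) (by positivity)]
    congr 1
    rw [← Real.rpow_natCast ε 3, ← Real.rpow_mul hεpos.le]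
    have : ((3 : ℕ) : ℝ) * α = 1 + β := by rw [hβ]; push_cast; ring
    rw [this, Real.rpow_add hεpos, Real.rpow_one]
  rw [hpow]
  have h1 : C * (4 ^ α * (ε * ε ^ β)) ≤ C * (4 ^ α * (ε * δ)) := by gcongr
  have h2 : C * (4 ^ α * (ε * δ)) = ε * (C / (16 * (C + 1))) := by
    rw [hδ]; field_simp
  have h3 : C / (16 * (C + 1)) < 1 / 16 := by
    rw [div_lt_div_iff₀ (by positivity) (by norm_num)]; linarith
  calc C * (4 ^ α * (ε * ε ^ β)) ≤ C * (4 ^ α * (ε * δ)) := h1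
    _ = ε * (C / (16 * (C + 1))) := h2
    _ < ε * (1 / 16) := mul_lt_mul_of_pos_left h3 hεpos
    _ = ε / 16 := by ring

/-- **S0110** in terms of the abbreviations `cube d` and `rho d`. -/
theorem sharp (d : ℕ) (hd : 2 ≤ d) (α : ℝ) (hα : 1 / 3 < α) (C : ℝ≥0) :
    ∃ μ ν : Measure (EuclideanSpace ℝ (Fin d)),
      IsProbabilityOn (cube d) μ ∧ IsProbabilityOn (cube d) ν ∧
      IsThreeAtomic μ ∧ IsThreeAtomic ν ∧
      (∃ T, IsOptimalMap (rho d) μ T) ∧ (∃ T, IsOptimalMap (rho d) ν T) ∧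
      ∀ Tμ Tν : EuclideanSpace ℝ (Fin d) → EuclideanSpace ℝ (Fin d),
        IsOptimalMap (rho d) μ Tμ → IsOptimalMap (rho d) ν Tν →
        ∃ π : Measure (EuclideanSpace ℝ (Fin d) × EuclideanSpace ℝ (Fin d)),
          IsPairCoupling μ ν π ∧
          (C : ℝ≥0∞) * quadCost π ^ α < ∫⁻ x, ‖Tμ x - Tν x‖ₑ ^ 2 ∂(rho d) := by
  obtain ⟨ε, hε0, hε1, hnum⟩ := exists_eps α hα C C.coe_nonneg
  set i₀ : Fin d := ⟨0, by omega⟩ with hi₀
  set i₁ : Fin d := ⟨1, by omega⟩ with hi₁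
  have h01 : i₀ ≠ i₁ := by simp [hi₀, hi₁, Fin.ext_iff]
  have hεabs : |ε| ≤ 1 := by rw [abs_of_pos hε0]; exact hε1.le
  have hα0 : 0 ≤ α := by linarith
  have hTm := measurable_Tsel i₀ i₁ ε
  have hTRm := measurable_TselR i₀ i₁ ε
  refine ⟨(rho d).map (Tsel i₀ i₁ ε), (rho d).map (TselR i₀ i₁ ε), ?_, ?_, ?_, ?_,
    ⟨Tsel i₀ i₁ ε, ?_⟩, ⟨TselR i₀ i₁ ε, ?_⟩, ?_⟩
  · refine good_isProbabilityOn hTm fun x => ?_
    obtain ⟨i, hi, _⟩ := Tsel_argmax i₀ i₁ ε x
    rw [hi]; exact sites_mem_cube i₀ i₁ hεabs i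
  · refine good_isProbabilityOn hTRm fun x => ?_
    obtain ⟨i, hi, _⟩ := TselR_argmax i₀ i₁ ε x
    rw [hi]; exact sitesR_mem_cube i₀ i₁ hεabs i
  · exact good_isThreeAtomic (sites_injective h01 ε) hTm (Tsel_mem_range i₀ i₁ ε)
      (rho_preimage_site_pos h01 hε0 hε1)
  · refine good_isThreeAtomic (sitesR_injective h01 ε) hTRm (TselR_mem_range i₀ i₁ ε) fun i => ?_
    rw [rho_preimage_siteR]; exact rho_preimage_site_pos h01 hε0 hε1 i
  · exact good_isOptimalMap (sites_injective h01 ε) hTm (Tsel_argmax i₀ i₁ ε)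
  · exact good_isOptimalMap (sitesR_injective h01 ε) hTRm (TselR_argmax i₀ i₁ ε)
  · intro Tμ Tν hTμ hTν
    have e1 : Tμ =ᵐ[rho d] Tsel i₀ i₁ ε :=
      good_ae_unique (sites_injective h01 ε) hTm (Tsel_argmax i₀ i₁ ε)
        (sites_mem_cube i₀ i₁ hεabs) hTμ
    have e2 : Tν =ᵐ[rho d] TselR i₀ i₁ ε :=
      good_ae_unique (sitesR_injective h01 ε) hTRm (TselR_argmax i₀ i₁ ε)
        (sitesR_mem_cube i₀ i₁ hεabs) hTν
    have hpair : Measurable fun z : Eu d => (z, refl i₁ z) :=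
      measurable_id.prodMk (measurable_refl i₁)
    refine ⟨((rho d).map (Tsel i₀ i₁ ε)).map (fun z => (z, refl i₁ z)), ⟨?_, ?_⟩, ?_⟩
    · rw [Measure.map_map measurable_fst hpair]
      exact Measure.map_id
    · rw [Measure.map_map measurable_snd hpair, map_TselR]
      rfl
    · have hm1 : Measurable fun p : Eu d × Eu d => ‖p.1 - p.2‖ₑ ^ 2 :=
        (measurable_fst.sub measurable_snd).enorm.pow_const 2
      have hm2 : Measurable fun z : Eu d => ‖z - refl i₁ z‖ₑ ^ 2 :=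
        (measurable_id.sub (measurable_refl i₁)).enorm.pow_const 2
      have hcost : quadCost (((rho d).map (Tsel i₀ i₁ ε)).map (fun z => (z, refl i₁ z)))
          ≤ ENNReal.ofReal (4 * ε ^ 2) * rho d (sliver i₀ i₁ ε) := by
        show ∫⁻ p, ‖p.1 - p.2‖ₑ ^ 2
            ∂(((rho d).map (Tsel i₀ i₁ ε)).map (fun z => (z, refl i₁ z))) ≤ _
        rw [lintegral_map hm1 hpair, lintegral_map hm2 hTm]
        calc ∫⁻ x, ‖Tsel i₀ i₁ ε x - refl i₁ (Tsel i₀ i₁ ε x)‖ₑ ^ 2 ∂(rho d)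
            ≤ ∫⁻ x, (sliver i₀ i₁ ε).indicator (fun _ => ENNReal.ofReal (4 * ε ^ 2)) x ∂(rho d) :=
              lintegral_mono (enorm_sub_refl_le h01 ε)
          _ = ENNReal.ofReal (4 * ε ^ 2) * rho d (sliver i₀ i₁ ε) :=
              lintegral_indicator_const (measurableSet_sliver i₀ i₁ ε) _
      have hlow : rho d (sliver i₀ i₁ ε) ≤ ∫⁻ x, ‖Tμ x - Tν x‖ₑ ^ 2 ∂(rho d) := by
        have hcongr : ∫⁻ x, ‖Tμ x - Tν x‖ₑ ^ 2 ∂(rho d)
            = ∫⁻ x, ‖Tsel i₀ i₁ ε x - TselR i₀ i₁ ε x‖ₑ ^ 2 ∂(rho d) :=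
          lintegral_congr_ae (by filter_upwards [e1, e2] with x h1 h2; rw [h1, h2])
        rw [hcongr]
        calc rho d (sliver i₀ i₁ ε)
            = ∫⁻ x, (sliver i₀ i₁ ε).indicator (fun _ => (1 : ℝ≥0∞)) x ∂(rho d) := by
              rw [lintegral_indicator_const (measurableSet_sliver i₀ i₁ ε), one_mul]
          _ ≤ ∫⁻ x, ‖Tsel i₀ i₁ ε x - TselR i₀ i₁ ε x‖ₑ ^ 2 ∂(rho d) :=
              lintegral_mono fun x => by
                by_cases hx : x ∈ sliver i₀ i₁ ε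
                · rw [Set.indicator_of_mem hx, enorm_sq_eq_ofReal, ← ENNReal.ofReal_one]
                  apply ENNReal.ofReal_le_ofReal
                  have := one_le_norm_sub h01 hε0 hx
                  nlinarith
                · rw [Set.indicator_of_notMem hx]; exact zero_le
      have hstep : (C : ℝ≥0∞) * (ENNReal.ofReal (4 * ε ^ 2) * ENNReal.ofReal ε) ^ α
          = ENNReal.ofReal (C * (4 * ε ^ 3) ^ α) := by
        rw [← ENNReal.ofReal_mul (by positivity), ENNReal.ofReal_rpow_of_nonneg (by positivity) hα0,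
          ← ENNReal.ofReal_coe_nnreal, ← ENNReal.ofReal_mul C.coe_nonneg]
        congr 3; ring
      calc (C : ℝ≥0∞) * quadCost (((rho d).map (Tsel i₀ i₁ ε)).map (fun z => (z, refl i₁ z))) ^ α
          ≤ (C : ℝ≥0∞) * (ENNReal.ofReal (4 * ε ^ 2) * ENNReal.ofReal ε) ^ α := by
            gcongr
            exact hcost.trans (by gcongr; exact rho_sliver_le hε0 hε1.le)
        _ = ENNReal.ofReal (C * (4 * ε ^ 3) ^ α) := hstep
        _ < ENNReal.ofReal (ε / 16) := (ENNReal.ofReal_lt_ofReal_iff (by positivity)).2 hnum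
        _ ≤ rho d (sliver i₀ i₁ ε) := le_rho_sliver h01 hε0 hε1.le
        _ ≤ ∫⁻ x, ‖Tμ x - Tν x‖ₑ ^ 2 ∂(rho d) := hlow

end Final

end Crest.Agent.Helper31.OT110
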